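import Vale.Agent.P245.K.Iface
import Vale.Agent.P245.K.OP3
import Vale.Agent.P245.K.FldAlg
import Vale.Agent.P245.K.R1S
import Vale.Agent.P245.K.W

/-!
P245, KLS block, row COMM (helper285, third seat): `∇ (1 + s A)⁻¹ = R1 ∇`.
-/

set_option linter.all false

open MeasureTheory Filter Topology Set Metric
open scoped NNReal ENNReal ContDiff
open Vale.Agent.P227.M Vale.Agent.P227.M.K814 Vale.Agent.P254 Vale.Agent.P254.SN

namespace Vale.Agent.P245.K.Cm

open Vale.Agent.P245.H464 (TE Lt mu integral_mu integrable_mu memLp_iff memLp_ci)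
open Vale.Agent.P245.K.OP3 Vale.Agent.P245.K.R1S

variable {n : ℕ} {V : E n → ℝ} {t : E n → Matrix (Fin n) (Fin n) ℝ} {c C c1 C1 s : ℝ}

/-! ## integration by parts for `div` -/

theorem ibp_div (h : TF V t) {g : E n → ℝ} (hg : LC g) {β : E n → Fin n → ℝ} (hβ : LCF β) :
    I V (fun x => ip t (fun y a => pd a g y) β x) = - I V (fun x => g x * dvg t β x) := by
  have hVc : Continuous V := h.V2.continuous
  have hF : ∀ b, LC (fun y => g y * β y b) := fun b => LC.mul_left hg.1 (hβ b)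
  have cF : ∀ b, CI (fun x => Dt t b (fun y => g y * β y b) x - x b * (g x * β x b)) :=
    fun b => (ci_Dt h (hF b) b).sub (CI.of_lc (LC.mul_left (ll_coord b) (hF b)))
  have iF : I V (fun x => ∑ b, (Dt t b (fun y => g y * β y b) x - x b * (g x * β x b))) = 0 := by
    rw [I_sum _ hVc fun b _ => cF b]
    exact Finset.sum_eq_zero fun b _ => tcore h (hF b) b (Eventually.of_forall fun x => rfl)
  have c1 : CI (fun x => ip t (fun y a => pd a g y) β x) := by
    unfold ip
    exact CI.sum _ fun a _ => CI.sum _ fun b _ =>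
      CI.mul_right (CI.mul_left (Bd.of_ll (tll h a b)) (CI.pd hg a)) (Bd.of_ll (hβ b).1)
  have c2 : CI (fun x => g x * dvg t β x) := CI.mul_left (Bd.of_ll hg.1) (ci_dvg h hβ)
  have key : I V (fun x => ip t (fun y a => pd a g y) β x + g x * dvg t β x) = 0 := by
    rw [← iF]
    refine I_congr ?_
    filter_upwards [hg.ae_diff, LCF.ae hβ] with x hgx hbx
    have e1 : ∀ b, Dt t b (fun y => g y * β y b) x =
        (∑ a, t x b a * pd a g x * β x b) + g x * ∑ a, t x b a * pd a (fun y => β y b) x := by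
      intro b
      unfold Dt
      rw [Finset.mul_sum, ← Finset.sum_add_distrib]
      refine Finset.sum_congr rfl fun a _ => ?_
      rw [Vale.Agent.P227.M.rpd_mul hgx (hbx b)]
      ring
    have e2 : ip t (fun y a => pd a g y) β x = ∑ b, ∑ a, t x b a * pd a g x * β x b := by
      unfold ip
      rw [Finset.sum_comm]
      exact Finset.sum_congr rfl fun b _ => Finset.sum_congr rfl fun a _ => by rw [h.symm x a b]
    have e3 : dvg t β x = ∑ b, ((∑ a, t x b a * pd a (fun y => β y b) x) - x b * β x b) := by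
      unfold dvg
      rw [Finset.sum_comm, Finset.sum_sub_distrib]
      congr 1
      exact Finset.sum_congr rfl fun b _ => Finset.sum_congr rfl fun a _ => by rw [h.symm x a b]
    rw [e2, e3, Finset.mul_sum, ← Finset.sum_add_distrib]
    refine Finset.sum_congr rfl fun b _ => ?_
    rw [e1]
    ring
  rw [I_add hVc c1 c2] at key
  linarith

/-- the same for `g ∈ H¹` -/
theorem ibp_H1 (hT : TE V t c C) (hR : Reg V c1 C1) {f : E n → ℝ} {Df : Fin n → E n → ℝ}
    (hf : H1 V f Df) {β : E n → Fin n → ℝ} (hβ : LCF β) :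
    I V (ip t (fun x a => Df a x) β) = - I V (fun x => f x * dvg t β x) := by
  have hV : Continuous V := hT.V2.continuous
  obtain ⟨g, hg, htg, htd⟩ := hf.core
  have hL2g : ∀ m, L2 V (g m) := fun m => ⟨(hg m).1.continuous.measurable,
    (memLp_iff hV (hg m).1.continuous.measurable.aestronglyMeasurable).1 (memLp_LC hR (hg m))⟩
  have hmpd : ∀ m a, MemLp (pd a (g m)) 2 (mu V) := fun m a => memLp_ci hV (CI.pd (hg m) a)
  have hL2d : ∀ m a, L2 V (pd a (g m)) := fun m a => ⟨(Bd.pd (hg m).1 a).1,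
    (memLp_iff hV (Bd.pd (hg m).1 a).1.aestronglyMeasurable).1 (hmpd m a)⟩
  have l0 := R1S.l2to hV hL2g hf.u2 htg
  have ld : ∀ a, L2to (mu V) (fun m => pd a (g m)) (Df a) := fun a =>
    R1S.l2to hV (fun m => hL2d m a) (hf.D2 a) (htd a)
  have hdv : MemLp (dvg t β) 2 (mu V) := memLp_ci hV (ci_dvg hT.toTF hβ)
  have l1 : Tendsto (fun m => ∫ x, g m x * dvg t β x ∂(mu V)) atTop
      (𝓝 (∫ x, f x * dvg t β x ∂(mu V))) := l0.mul (L2to.const hdv)
  have l2 := form_lim (V := V) (t := t) hT.toTB (f := fun m a x => pd a (g m) x)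
    (Du := fun a x => Df a x) (g := fun _ a x => β x a) (Dw := fun a x => β x a) ld
    (fun a => L2to.const (memLp_LC hR (hβ a)))
  have e : ∀ α : E n → Fin n → ℝ, ∫ x, (∑ a, ∑ b, t x a b * α x a * β x b) ∂(mu V) = I V (ip t α β) :=
    fun α => integral_mu hV _
  have e' : ∀ u : E n → ℝ, ∫ x, u x * dvg t β x ∂(mu V) = I V (fun x => u x * dvg t β x) :=
    fun u => integral_mu hV _
  have e1 : (∫ x, (∑ a, ∑ b, t x a b * Df a x * β x b) ∂(mu V)) = I V (ip t (fun x a => Df a x) β) :=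
    e (fun x a => Df a x)
  have e2 : (fun m => ∫ x, (∑ a, ∑ b, t x a b * pd a (g m) x * β x b) ∂(mu V)) =
      fun m => - ∫ x, g m x * dvg t β x ∂(mu V) := by
    funext m
    rw [e' (g m), ← ibp_div hT.toTF (hg m) hβ]
    exact e (fun x a => pd a (g m) x)
  rw [← e1, ← e' f]
  have l3 : Tendsto (fun m => - ∫ x, g m x * dvg t β x ∂(mu V)) atTop
      (𝓝 (- ∫ x, f x * dvg t β x ∂(mu V))) := l1.neg
  rw [← e2] at l3
  exact tendsto_nhds_unique l2 l3

/-! ## the divergence is bounded by the form -/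

theorem q2_low (h : TE V t c C) (x : E n) (u : Fin n → ℝ) : c * ∑ a, u a ^ 2 ≤ q2 (t x) u u :=
  form_low h x u

theorem Q2_low (h : TE V t c C) (x : E n) (A : Fin n → Fin n → ℝ) :
    c ^ 2 * ∑ k, ∑ a, A k a ^ 2 ≤ Q2 (t x) A A := by
  have hc := h.lam_pos
  obtain ⟨S, hS⟩ := Vale.Agent.P254.S2.pw_fact (posT h x)
  rw [Q2_fact (t x) (posT h x) S hS]
  have h1 : ∀ r, c * ∑ k, (∑ a, S r a * A k a) ^ 2 ≤
      q2 (t x) (fun k => ∑ a, S r a * A k a) (fun k => ∑ a, S r a * A k a) := fun r =>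
    q2_low h x _
  have h2 : ∀ k, ∑ r, (∑ a, S r a * A k a) ^ 2 = q2 (t x) (A k) (A k) := by
    intro k
    rw [q2_fact (t x) S hS]
    exact Finset.sum_congr rfl fun r _ => by ring
  calc c ^ 2 * ∑ k, ∑ a, A k a ^ 2 = c * ∑ k, c * ∑ a, A k a ^ 2 := by
        rw [← Finset.mul_sum]; ring
    _ ≤ c * ∑ k, q2 (t x) (A k) (A k) :=
        mul_le_mul_of_nonneg_left (Finset.sum_le_sum fun k _ => q2_low h x _) hc.le
    _ = c * ∑ k, ∑ r, (∑ a, S r a * A k a) ^ 2 := by simp only [h2]
    _ = ∑ r, c * ∑ k, (∑ a, S r a * A k a) ^ 2 := by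
        rw [Finset.sum_comm, Finset.mul_sum]
    _ ≤ _ := Finset.sum_le_sum fun r _ => h1 r

theorem sq_sum_le (f : Fin n → ℝ) : (∑ i, f i) ^ 2 ≤ n * ∑ i, f i ^ 2 := by
  have := sq_sum_le_card_mul_sum_sq (s := (Finset.univ : Finset (Fin n))) (f := f)
  simpa using this

theorem sq_le_sq_mul {a b M : ℝ} (h : |a| ≤ M) : (a * b) ^ 2 ≤ M ^ 2 * b ^ 2 := by
  rw [mul_pow]
  exact mul_le_mul_of_nonneg_right (sq_le_sq' (by linarith [(abs_le.1 h).1]) (abs_le.1 h).2)
    (sq_nonneg _)

/-- the sums of squares -/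
noncomputable def B2 (β : E n → Fin n → ℝ) (x : E n) : ℝ := ∑ a, β x a ^ 2

noncomputable def A2 (β : E n → Fin n → ℝ) (x : E n) : ℝ := ∑ k, ∑ a, pd k (fun y => β y a) x ^ 2

theorem ci_sq {f : E n → ℝ} (hf : CI f) : CI (fun x => f x ^ 2) := by
  simp only [sq]
  exact CI.mul_right hf hf.1

theorem ci_B2 {β : E n → Fin n → ℝ} (hβ : LCF β) : CI (B2 β) :=
  CI.sum _ fun a _ => ci_sq (CI.of_lc (hβ a))

theorem ci_A2 {β : E n → Fin n → ℝ} (hβ : LCF β) : CI (A2 β) :=
  CI.sum _ fun k _ => CI.sum _ fun a _ => ci_sq (CI.pd (hβ a) k)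

theorem NN_low (h : TE V t c C) (hs : 0 < s) {β : E n → Fin n → ℝ} (hβ : LCF β) :
    c * I V (B2 β) + s * (c ^ 2 * I V (A2 β)) ≤ NN V t s β β := by
  have hV : Continuous V := h.V2.continuous
  unfold NN
  have h1 : c * I V (B2 β) ≤ I V (ip t β β) := by
    rw [← I_const_mul]
    exact I_mono hV (CI.const_mul' c (ci_B2 hβ)) (R1S.ci_ip h hβ hβ)
      (Eventually.of_forall fun x => q2_low h x (β x))
  have h2 : c ^ 2 * I V (A2 β) ≤ I V (ee t β β) := by
    rw [← I_const_mul]
    refine I_mono hV (CI.const_mul' _ (ci_A2 hβ)) (R1S.ci_ee h hβ hβ)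
      (Eventually.of_forall fun x => ?_)
    rw [R1S.ee_eq]
    have k1 := Q2_low h x (R1S.dA β x)
    have k2 := q2_nonneg (t x) (posT h x) (β x)
    have k3 : A2 β x = ∑ k, ∑ a, R1S.dA β x k a ^ 2 := rfl
    rw [k3]
    linarith
  exact add_le_add h1 (mul_le_mul_of_nonneg_left h2 hs.le)

theorem x_bound (h : TE V t c C) {M : ℝ} (hM : ∀ x i j, |t x i j| ≤ M) {β : E n → Fin n → ℝ}
    (hβ : LCF β) (b : Fin n) :
    I V (fun x => (x b * β x b) ^ 2) ≤ 2 * M * I V (B2 β) + 4 * (n * M ^ 2) * I V (A2 β) := by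
  have hV : Continuous V := h.V2.continuous
  have hT := h.toTF
  have hF : LC (fun y => y b * (β y b * β y b)) :=
    LC.mul_left (ll_coord b) (LC.mul_left (hβ b).1 (hβ b))
  have iF : I V (fun x => Dt t b (fun y => y b * (β y b * β y b)) x
      - x b * (x b * (β x b * β x b))) = 0 := tcore hT hF b (Eventually.of_forall fun x => rfl)
  have hxb : LC (fun y => y b * β y b) := LC.mul_left (ll_coord b) (hβ b)
  have cx : CI (fun x => (x b * β x b) ^ 2) := ci_sq (CI.of_lc hxb)
  have cD : CI (fun x => Dt t b (fun y => β y b) x) := ci_Dt hT (hβ b) b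
  have c1 : CI (fun x => t x b b * β x b ^ 2 + 2 * (x b * β x b * Dt t b (fun y => β y b) x)) := by
    refine CI.add (CI.mul_left (Bd.of_ll (tll hT b b)) (ci_sq (CI.of_lc (hβ b)))) ?_
    exact CI.const_mul' 2 (CI.mul_left (Bd.of_ll hxb.1) cD)
  have e1 : I V (fun x => (x b * β x b) ^ 2) =
      I V (fun x => t x b b * β x b ^ 2 + 2 * (x b * β x b * Dt t b (fun y => β y b) x)) := by
    have k1 : I V (fun x => (t x b b * β x b ^ 2 + 2 * (x b * β x b * Dt t b (fun y => β y b) x))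
        - (x b * β x b) ^ 2) = 0 := by
      rw [← iF]
      refine I_congr ?_
      filter_upwards [(hβ b).ae_diff] with x hx
      have d1 : ∀ a, pd a (fun y => y b * (β y b * β y b)) x =
          (if b = a then 1 else 0) * (β x b * β x b) +
            x b * (pd a (fun y => β y b) x * β x b + β x b * pd a (fun y => β y b) x) := by
        intro a
        rw [Vale.Agent.P227.M.rpd_mul (rad_diff_coord b x) (hx.fun_mul hx), rpd_coord,
          Vale.Agent.P227.M.rpd_mul hx hx]
      have d2 : Dt t b (fun y => y b * (β y b * β y b)) x =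
          t x b b * (β x b * β x b) + 2 * (x b * β x b * Dt t b (fun y => β y b) x) := by
        unfold Dt
        simp only [d1, mul_add, Finset.sum_add_distrib, Finset.mul_sum]
        congr 1
        · rw [Finset.sum_eq_single b]
          · simp
          · intro a _ ha
            rw [if_neg (Ne.symm ha)]; ring
          · intro hb
            exact absurd (Finset.mem_univ b) hb
        · rw [← Finset.sum_add_distrib]
          exact Finset.sum_congr rfl fun a _ => by ring
      rw [d2]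
      ring
    rw [I_sub hV c1 cx] at k1
    linarith
  have c2 : CI (fun x => (M * B2 β x + 2 * (n * M ^ 2 * A2 β x)) + 1 / 2 * (x b * β x b) ^ 2) :=
    CI.add (CI.add (CI.const_mul' M (ci_B2 hβ)) (CI.const_mul' 2 (CI.const_mul' _ (ci_A2 hβ))))
      (CI.const_mul' _ cx)
  have hM0 : 0 ≤ M := (abs_nonneg _).trans (hM 0 b b)
  have e2 := I_mono hV c1 c2 (Eventually.of_forall fun x => by
    have k1 : t x b b * β x b ^ 2 ≤ M * B2 β x := by
      have m1 : t x b b * β x b ^ 2 ≤ M * β x b ^ 2 :=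
        mul_le_mul_of_nonneg_right ((le_abs_self _).trans (hM x b b)) (sq_nonneg _)
      have m2 : β x b ^ 2 ≤ B2 β x :=
        Finset.single_le_sum (f := fun a => β x a ^ 2) (fun a _ => sq_nonneg _) (Finset.mem_univ b)
      exact m1.trans (mul_le_mul_of_nonneg_left m2 hM0)
    have k2 : (Dt t b (fun y => β y b) x) ^ 2 ≤ n * M ^ 2 * A2 β x := by
      unfold Dt
      refine (sq_sum_le _).trans ?_
      rw [mul_assoc]
      refine mul_le_mul_of_nonneg_left ?_ (Nat.cast_nonneg n)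
      unfold A2
      rw [Finset.mul_sum]
      refine Finset.sum_le_sum fun k _ => ?_
      refine (sq_le_sq_mul (hM x b k)).trans ?_
      refine mul_le_mul_of_nonneg_left ?_ (sq_nonneg M)
      exact Finset.single_le_sum (f := fun a => pd k (fun y => β y a) x ^ 2) (fun a _ => sq_nonneg _)
        (Finset.mem_univ b)
    show t x b b * β x b ^ 2 + 2 * (x b * β x b * Dt t b (fun y => β y b) x) ≤
      (M * B2 β x + 2 * (n * M ^ 2 * A2 β x)) + 1 / 2 * (x b * β x b) ^ 2
    nlinarith [sq_nonneg (x b * β x b - 2 * Dt t b (fun y => β y b) x)])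
  rw [I_add hV (CI.add (CI.const_mul' M (ci_B2 hβ)) (CI.const_mul' 2 (CI.const_mul' _ (ci_A2 hβ))))
      (CI.const_mul' _ cx), I_add hV (CI.const_mul' M (ci_B2 hβ))
      (CI.const_mul' 2 (CI.const_mul' _ (ci_A2 hβ))), I_const_mul, I_const_mul, I_const_mul,
      I_const_mul, ← e1] at e2
  linarith

theorem div_bound (h : TE V t c C) (hs : 0 < s) : ∃ K : ℝ, 0 ≤ K ∧ ∀ β : E n → Fin n → ℝ, LCF β →
    I V (fun x => dvg t β x ^ 2) ≤ K * NN V t s β β := by
  have hV : Continuous V := h.V2.continuous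
  have hc := h.lam_pos
  obtain ⟨M, hM⟩ := h.bt
  obtain ⟨K1, hK1⟩ : ∃ K1 : ℝ, K1 = 2 * (n * (n * M ^ 2)) + 2 * (n * (n * (4 * (n * M ^ 2)))) := ⟨_, rfl⟩
  obtain ⟨K2, hK2⟩ : ∃ K2 : ℝ, K2 = 2 * (n * (n * (2 * |M|))) := ⟨_, rfl⟩
  have hK1' : 0 ≤ K1 := by rw [hK1]; positivity
  have hK2' : 0 ≤ K2 := by rw [hK2]; positivity
  refine ⟨K1 / (s * c ^ 2) + K2 / c, by positivity, fun β hβ => ?_⟩
  have hA0 : 0 ≤ I V (A2 β) := integral_nonneg fun x => mul_nonneg
    (Finset.sum_nonneg fun k _ => Finset.sum_nonneg fun a _ => sq_nonneg _) (Real.exp_pos _).le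
  have hB0 : 0 ≤ I V (B2 β) := integral_nonneg fun x => mul_nonneg
    (Finset.sum_nonneg fun a _ => sq_nonneg _) (Real.exp_pos _).le
  have hN := NN_low h hs hβ
  have cx : ∀ b, CI (fun x => (x b * β x b) ^ 2) := fun b =>
    ci_sq (CI.of_lc (LC.mul_left (ll_coord b) (hβ b)))
  have hp : ∀ x, dvg t β x ^ 2 ≤ 2 * (n * (n * M ^ 2)) * A2 β x + 2 * n * ∑ b, (x b * β x b) ^ 2 := by
    intro x
    have k1 : (∑ a, ∑ b, t x a b * pd a (fun y => β y b) x) ^ 2 ≤ n * (n * M ^ 2) * A2 β x := by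
      refine (sq_sum_le _).trans ?_
      rw [mul_assoc]
      refine mul_le_mul_of_nonneg_left ?_ (Nat.cast_nonneg n)
      unfold A2
      rw [Finset.mul_sum]
      refine Finset.sum_le_sum fun k _ => ?_
      refine (sq_sum_le _).trans ?_
      rw [mul_assoc]
      refine mul_le_mul_of_nonneg_left ?_ (Nat.cast_nonneg n)
      rw [Finset.mul_sum]
      exact Finset.sum_le_sum fun a _ => sq_le_sq_mul (hM x k a)
    have k2 : (∑ b, x b * β x b) ^ 2 ≤ n * ∑ b, (x b * β x b) ^ 2 := sq_sum_le _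
    have k3 : dvg t β x = (∑ a, ∑ b, t x a b * pd a (fun y => β y b) x) - ∑ b, x b * β x b := rfl
    rw [k3]
    nlinarith [sq_nonneg ((∑ a, ∑ b, t x a b * pd a (fun y => β y b) x) + ∑ b, x b * β x b)]
  have cr : CI (fun x => 2 * (n * (n * M ^ 2)) * A2 β x + 2 * n * ∑ b, (x b * β x b) ^ 2) :=
    CI.add (CI.const_mul' _ (ci_A2 hβ)) (CI.const_mul' _ (CI.sum _ fun b _ => cx b))
  have hI := I_mono hV (ci_sq (ci_dvg h.toTF hβ)) cr (Eventually.of_forall hp)
  rw [I_add hV (CI.const_mul' _ (ci_A2 hβ)) (CI.const_mul' _ (CI.sum _ fun b _ => cx b)), I_const_mul,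
    I_const_mul, I_sum _ hV fun b _ => cx b] at hI
  have hx : ∑ b, I V (fun x => (x b * β x b) ^ 2) ≤
      n * (2 * |M| * I V (B2 β) + 4 * (n * M ^ 2) * I V (A2 β)) := by
    calc ∑ b, I V (fun x => (x b * β x b) ^ 2)
        ≤ ∑ _b : Fin n, (2 * |M| * I V (B2 β) + 4 * (n * M ^ 2) * I V (A2 β)) := by
          refine Finset.sum_le_sum fun b _ => (x_bound h hM hβ b).trans ?_
          have : 2 * M * I V (B2 β) ≤ 2 * |M| * I V (B2 β) :=
            mul_le_mul_of_nonneg_right (by linarith [le_abs_self M]) hB0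
          linarith
      _ = _ := by
          rw [Finset.sum_const, Finset.card_univ, Fintype.card_fin, nsmul_eq_mul]
  have hfin : I V (fun x => dvg t β x ^ 2) ≤ K1 * I V (A2 β) + K2 * I V (B2 β) := by
    refine hI.trans ?_
    have := mul_le_mul_of_nonneg_left hx (by positivity : (0 : ℝ) ≤ 2 * n)
    rw [hK1, hK2]
    nlinarith [this]
  refine hfin.trans ?_
  have h1 : K1 * I V (A2 β) ≤ K1 / (s * c ^ 2) * NN V t s β β := by
    have : I V (A2 β) ≤ (s * c ^ 2)⁻¹ * NN V t s β β := by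
      rw [← div_eq_inv_mul, le_div_iff₀ (by positivity)]
      nlinarith
    calc K1 * I V (A2 β) ≤ K1 * ((s * c ^ 2)⁻¹ * NN V t s β β) := mul_le_mul_of_nonneg_left this hK1'
      _ = _ := by rw [div_eq_mul_inv]; ring
  have h2 : K2 * I V (B2 β) ≤ K2 / c * NN V t s β β := by
    have h3 : 0 ≤ s * (c ^ 2 * I V (A2 β)) := by positivity
    have : I V (B2 β) ≤ c⁻¹ * NN V t s β β := by
      rw [← div_eq_inv_mul, le_div_iff₀ hc]
      nlinarith
    calc K2 * I V (B2 β) ≤ K2 * (c⁻¹ * NN V t s β β) := mul_le_mul_of_nonneg_left this hK2'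
      _ = _ := by rw [div_eq_mul_inv]; ring
  linarith

/-! ## the commutation -/

theorem dvg_grad (t : E n → Matrix (Fin n) (Fin n) ℝ) (g : E n → ℝ) (x : E n) :
    dvg t (fun y a => pd a g y) x = Lt t g x := rfl

theorem lcf_grad {g : E n → ℝ} (hg : Test g) : LCF (fun y a => pd a g y) := fun a =>
  Test.lc (K.test_pd hg a)

/-- the form on gradients of test functions -/
theorem NN_grad (h : Base V t c C) {g : E n → ℝ} (hg : Test g) {β : E n → Fin n → ℝ} (hβ : LCF β) :
    NN V t s (fun y a => pd a g y) β = - I V (fun x => (g x - s * Lt t g x) * dvg t β x) := by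
  have hV : Continuous V := h.V2.continuous
  have hT := h.toTF
  have e1 := ibp_div hT (Test.lc hg) hβ
  have e2 := stmtW n V t c C h g hg β hβ
  unfold NN
  rw [← e2]
  have e1' : I V (ip t (fun y a => pd a g y) β) = - I V (fun x => g x * dvg t β x) := e1
  rw [e1', ← I_const_mul]
  have c1 : CI (fun x => g x * dvg t β x) := CI.mul_left (Bd.of_ll (Test.lc hg).1) (ci_dvg hT hβ)
  have c2 : CI (fun x => s * (Lt t g x * dvg t β x)) :=
    CI.const_mul' s (CI.mul_left (Bd.of_ll (K.lc_Lt hT hg).1) (ci_dvg hT hβ))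
  have e3 : I V (fun x => (g x - s * Lt t g x) * dvg t β x) =
      I V (fun x => g x * dvg t β x - s * (Lt t g x * dvg t β x)) :=
    I_congr (Eventually.of_forall fun x => by ring)
  rw [e3, I_sub hV c1 c2]
  ring

/-- Cauchy-Schwarz -/
theorem I_cs (hV : Continuous V) {f g : E n → ℝ} (hf : MemLp f 2 (mu V)) (hg : MemLp g 2 (mu V)) :
    |I V (fun x => f x * g x)| ≤ Real.sqrt (I V (fun x => f x ^ 2)) * Real.sqrt (I V (fun x => g x ^ 2)) := by
  have h1 := abs_real_inner_le_norm (hf.toLp f) (hg.toLp g)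
  rw [inner_toLp1 hf hg, norm_toLp1 hf, norm_toLp1 hg, integral_mu hV, integral_mu hV,
    integral_mu hV] at h1
  exact h1

theorem comm : StmtComm := by
  intro n V t c C h s hs f Df hf u Au Du hu hfu
  obtain ⟨c1, C1, hR⟩ := h.reg
  have hTE := h.toTE
  have hT := h.toTF
  have hV : Continuous V := h.V2.continuous
  obtain ⟨g, hD⟩ := hu
  obtain ⟨K, hK0, hK⟩ := div_bound hTE hs
  have hL2 : ∀ {w : E n → ℝ}, CI w → L2 V w := fun {w} hw => ⟨hw.1.1,
    (memLp_iff hV hw.1.1.aestronglyMeasurable).1 (memLp_ci hV hw)⟩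
  have lg : L2to (mu V) g u := R1S.l2to hV (fun m => hL2 (CI.of_lc (Test.lc (hD.test m)))) ⟨hD.mu, hD.iu⟩ hD.lu
  have lA : L2to (mu V) (fun m x => -(Lt t (g m) x)) Au := by
    refine R1S.l2to hV (fun m => ?_) ⟨hD.mA, hD.iA⟩ hD.lA
    have k := Vale.Agent.P245.K.lc_Lt hT (hD.test m)
    exact hL2 (CI.of_lc ⟨by simpa using ll_mul (ll_const (-1)) k.1, k.2.neg⟩)
  have lw : L2to (mu V) (fun m x => g m x + s * (-(Lt t (g m) x))) (fun x => u x + s * Au x) :=
    lg.add (lA.smul s)
  have lwf : L2to (mu V) (fun m x => g m x + s * (-(Lt t (g m) x))) f :=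
    lw.congr_lim ((Vale.Agent.P245.H464.mu_ac V).ae_le hfu)
  -- the error
  have lerr : Tendsto (fun m => I V (fun x => (g m x + s * (-(Lt t (g m) x)) - f x) ^ 2)) atTop (𝓝 0) := by
    have := lwf.conv
    refine this.congr fun m => ?_
    exact integral_mu hV _
  refine ⟨fun a => hf.D2 a, fun a => ⟨hD.mD a, hD.iD a⟩, fun m y a => pd a (g m) y,
    fun m => Real.sqrt K * Real.sqrt (I V (fun x => (g m x + s * (-(Lt t (g m) x)) - f x) ^ 2)),
    fun m => lcf_grad (hD.test m), fun a => hD.lD a, ?_, fun m => by positivity, ?_, ?_⟩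
  · -- boundedness
    have l1 : Tendsto (fun m => ∫ x, (g m x + s * (-(Lt t (g m) x))) * (-(Lt t (g m) x)) ∂(mu V)) atTop
        (𝓝 (∫ x, f x * Au x ∂(mu V))) := lwf.mul lA
    obtain ⟨B, hB⟩ := l1.bddAbove_range
    refine ⟨B, fun m => ?_⟩
    rw [NN_grad h (hD.test m) (lcf_grad (hD.test m))]
    refine le_trans (le_of_eq ?_) (hB ⟨m, rfl⟩)
    simp only []
    rw [integral_mu hV]
    unfold I
    rw [← integral_neg]
    refine integral_congr_ae (Eventually.of_forall fun x => ?_)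
    simp only [dvg_grad]
    ring
  · -- the error tends to zero
    have k := (Real.continuous_sqrt.tendsto 0).comp lerr
    rw [Real.sqrt_zero] at k
    have k2 := k.const_mul (Real.sqrt K)
    rw [mul_zero] at k2
    exact k2
  · intro m β hβ
    rw [NN_grad h (hD.test m) hβ, ibp_H1 hTE hR hf hβ]
    have hm1 : MemLp (fun x => g m x + s * (-(Lt t (g m) x)) - f x) 2 (mu V) := (lwf.mem m).sub lwf.lim
    have hm2 : MemLp (dvg t β) 2 (mu V) := memLp_ci hV (ci_dvg hT hβ)
    have e1 : - I V (fun x => (g m x - s * Lt t (g m) x) * dvg t β x) -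
        -I V (fun x => f x * dvg t β x) =
        - I V (fun x => (g m x + s * (-(Lt t (g m) x)) - f x) * dvg t β x) := by
      have i1 : Integrable (fun x => (g m x - s * Lt t (g m) x) * dvg t β x * Real.exp (-V x)) := by
        rw [← integrable_mu hV]
        have := (lwf.mem m).integrable_mul hm2
        refine this.congr (Eventually.of_forall fun x => ?_)
        simp only [Pi.mul_apply]
        ring
      have i2 : Integrable (fun x => f x * dvg t β x * Real.exp (-V x)) := by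
        rw [← integrable_mu hV]
        exact lwf.lim.integrable_mul hm2
      unfold I
      have e3 : ∫ x, (g m x + s * (-(Lt t (g m) x)) - f x) * dvg t β x * Real.exp (-V x) =
          (∫ x, (g m x - s * Lt t (g m) x) * dvg t β x * Real.exp (-V x)) -
            ∫ x, f x * dvg t β x * Real.exp (-V x) := by
        rw [← integral_sub i1 i2]
        exact integral_congr_ae (Eventually.of_forall fun x => by simp only []; ring)
      rw [e3]
      ring
    rw [e1, abs_neg]
    refine (I_cs hV hm1 hm2).trans ?_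
    have k1 : Real.sqrt (I V (fun x => dvg t β x ^ 2)) ≤ Real.sqrt K * Real.sqrt (NN V t s β β) := by
      rw [← Real.sqrt_mul hK0]
      exact Real.sqrt_le_sqrt (hK β hβ)
    calc Real.sqrt (I V (fun x => (g m x + s * (-(Lt t (g m) x)) - f x) ^ 2)) *
          Real.sqrt (I V (fun x => dvg t β x ^ 2))
        ≤ Real.sqrt (I V (fun x => (g m x + s * (-(Lt t (g m) x)) - f x) ^ 2)) *
          (Real.sqrt K * Real.sqrt (NN V t s β β)) :=
          mul_le_mul_of_nonneg_left k1 (Real.sqrt_nonneg _)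
      _ = _ := by ring

end Vale.Agent.P245.K.Cm
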